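import Vale.Agent.P258.R2.H390.Main2

/-!
The slopes `2` and `-2` are not cosmetic for whole classes of closures of braids modulo normal
subgroups of finite index of the braid group.
-/

namespace Vale.Agent.Results.P258.BraidClasses

open Vale.Agent.P258.Braid

/-- Congruence classes of braids and purely cosmetic surgeries.
(1) Let `G` be a finite group and let `N > 0` be a multiple of its exponent.  There is a normal
subgroup `S` of finite index of the braid group on `m` strands such that, for all `w`, `w'` in the
same coset of `S` and all arcs `K` below and above, `w` closes up to a knot if and only if `w'`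
does; the numbers of homomorphisms to `G` of the groups of the surgeries of slopes `p / q` and
`p' / q'`, congruent modulo `N`, are the same; and if the numbers of homomorphisms to `G` for the
slopes `p / q` and `r / s` on the closure of `w` are different, then the groups of the surgeries of
congruent slopes on the closure of `w'` are not isomorphic.
(2) For the explicit braids `fam n` on six strands, for all `n` in certain residue classes, the
closures are knots for which the slopes `2` and `-2` are separated in this way, and so are the
closures of all braids in their cosets of a normal subgroup of finite index. -/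
theorem result :
    (∀ (m : ℕ) (G : Type) [Group G] [Finite G] (N : ℕ), 0 < N → (∀ g : G, g ^ N = 1) →
      ∃ S : Subgroup (BraidGroup m), S.Normal ∧ S.FiniteIndex ∧
        ∀ w w' : Word, (toBraid m w)⁻¹ * toBraid m w' ∈ S → ∀ K : Caps m,
          (K.IsKnot w ↔ K.IsKnot w') ∧
          (∀ p q p' q' : ℤ, (N : ℤ) ∣ p' - p → (N : ℤ) ∣ q' - q →
            K.homCount G w' p' q' = K.homCount G w p q) ∧
          (∀ p q r s p' q' r' s' : ℤ, K.homCount G w p q ≠ K.homCount G w r s →
            (N : ℤ) ∣ p' - p → (N : ℤ) ∣ q' - q → (N : ℤ) ∣ r' - r → (N : ℤ) ∣ s' - s →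
            IsEmpty (PresentedGroup (K.relators w' p' q') ≃*
              PresentedGroup (K.relators w' r' s')))) ∧
    (∃ S : Subgroup (BraidGroup 6), S.Normal ∧ S.FiniteIndex ∧
      ∀ n : ℤ, (24 ∣ n - 7 ∨ 24 ∣ n + 7 ∨ 168 ∣ n - 9 ∨ 168 ∣ n + 9 ∨ 168 ∣ n - 33 ∨
          168 ∣ n + 33 ∨ 168 ∣ n - 73 ∨ 168 ∣ n + 73 ∨ 252 ∣ n - 5) →
        ∀ w : Word, (toBraid 6 (fam n))⁻¹ * toBraid 6 w ∈ S → caps6.IsKnot w ∧
          ∀ p q r s : ℤ, 252 ∣ p - 2 → 252 ∣ q - 1 → 252 ∣ r + 2 → 252 ∣ s - 1 →
            IsEmpty (PresentedGroup (caps6.relators w p q) ≃*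
              PresentedGroup (caps6.relators w r s))) :=
  ⟨fun m G _ _ N hpos hN => general m G N hpos hN, explicit2⟩

end Vale.Agent.Results.P258.BraidClasses
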