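import Vale.Agent.P258.R2.H394.Knot
import Vale.Agent.P258.R2.H394.Final3

/-!
Purely cosmetic surgeries on satellites with an arbitrary companion, for classes of patterns and of
twistings.
-/

namespace Vale.Agent.Results.P258.EveryTwist

open Vale.Agent.P258

/-- In (1) and (3), `G` is any finite group and `N` is a multiple of its exponent.
(1) If the surgeries of slopes `p₀` and `p₁` on a knot `P` have different numbers of homomorphisms
to `G`, then for every knot `J`, every twisting `f` and every pattern congruent modulo `N` to the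
split link formed by `P` and a trivial circle, the surgeries of slopes congruent to `p₀` and `p₁`
on the `f`-twisted satellite of `J` have non-isomorphic fundamental groups.
(2) This holds for the slopes `2` and `-2`, the Montesinos knot `M(-2/19, 1/5, -2/21)` and
`N = 126`.
(3) A condition on the homomorphisms of the group of a link `P = K ∪ E` to `G` which implies the
same for the `f`-twisted satellites with all patterns congruent to `P` modulo `N`.
(4) This holds for the slopes `2` and `-2`, the link `pattern` and the following `f` and `N`: `f`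
odd or congruent to `2` modulo `5`, `60`; congruent to `4` modulo `5`, `120`; congruent to `1`
modulo `3`, `240`.
(5) The same for `f` congruent to `3` or `6` modulo `7`, `126`; congruent to `4` modulo `7`, `168`.
(6) So the slopes `2` and `-2` are not cosmetic for the `f`-twisted satellite of any knot `J` with
this pattern if `f` is not divisible by `6`, or is one of these. -/
theorem result :
    (∀ (G : Type) [Group G] [Finite G] (N : ℕ), (∀ g : G, g ^ N = 1) →
      ∀ (P : Diagram) (k : Fin P.n) (p₀ p₁ : ℤ),
      homCount G P k p₀ 1 ≠ homCount G P k p₁ 1 → SeparatesSplitClass N P k p₀ p₁) ∧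
    (montesinos.IsKnot ∧ SeparatesSplitClass 126 montesinos montesinosK 2 (-2)) ∧
    (∀ (G A : Type) [Group G] [Finite G] [CommGroup A] (eps : G →* A) (N : ℕ),
      (∀ g : G, g ^ N = 1) → ∀ (P : Diagram) (k e : Fin P.n) (f p q : ℤ),
      SeparatesGraded G A eps P k e f p q → SeparatesClassSlopes N P k e f p q) ∧
    ((∀ f : ℤ, (f % 2 = 1 ∨ f % 5 = 2) →
      SeparatesClassSlopes 60 pattern patternK patternE f 2 (-2)) ∧
     (∀ f : ℤ, f % 5 = 4 → SeparatesClassSlopes 120 pattern patternK patternE f 2 (-2)) ∧
     ∀ f : ℤ, f % 3 = 1 → SeparatesClassSlopes 240 pattern patternK patternE f 2 (-2)) ∧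
    ((∀ f : ℤ, (f % 7 = 3 ∨ f % 7 = 6) →
      SeparatesClassSlopes 126 pattern patternK patternE f 2 (-2)) ∧
     ∀ f : ℤ, f % 7 = 4 → SeparatesClassSlopes 168 pattern patternK patternE f 2 (-2)) ∧
    (∀ J : Diagram, J.IsKnot → ∀ (j : Fin J.n) (f : ℤ),
      (¬ 6 ∣ f ∨ f % 5 = 2 ∨ f % 5 = 4 ∨ f % 7 = 3 ∨ f % 7 = 4 ∨ f % 7 = 6) →
      IsEmpty (PresentedGroup (satelliteRelators pattern J patternK patternE j f 2) ≃*
        PresentedGroup (satelliteRelators pattern J patternK patternE j f (-2)))) := by
  have h4 : ∀ f : ℤ, (f % 2 = 1 ∨ f % 5 = 2) →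
      SeparatesClassSlopes 60 pattern patternK patternE f 2 (-2) :=
    fun f hf => separatesClassSlopes_symm (class_odd f hf)
  have h4' : ∀ f : ℤ, f % 5 = 4 →
      SeparatesClassSlopes 120 pattern patternK patternE f 2 (-2) :=
    fun f hf => separatesClassSlopes_symm (class_four_five f hf)
  have h5 : ∀ f : ℤ, (f % 7 = 3 ∨ f % 7 = 6) →
      SeparatesClassSlopes 126 pattern patternK patternE f 2 (-2) :=
    fun f hf => separatesClassSlopes_of_class (Second.H747A.class_seven f hf)
  refine ⟨fun G _ _ N hN P k p₀ p₁ h => separatesSplitClass_of_homCount hN P k p₀ p₁ h,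
    ⟨Second.montesinos_isKnot, montesinos_class⟩,
    fun G A _ _ _ eps N hN P k e f p q h => separatesClassSlopes_of_graded eps hN P k e f p q h,
    ⟨h4, h4', class_one_three⟩, ⟨h5, class_four_seven⟩, fun J hJ j f hf => ?_⟩
  have h3 : f % 3 = 2 → IsEmpty
      (PresentedGroup (satelliteRelators pattern J patternK patternE j f 2) ≃*
        PresentedGroup (satelliteRelators pattern J patternK patternE j f (-2))) := fun h =>
    satellite_of_classSlopes (separatesClassSlopes_of_class (class_two_three f h)) J hJ j
  by_cases h1 : f % 2 = 1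
  · exact satellite_of_classSlopes (h4 f (Or.inl h1)) J hJ j
  by_cases h2 : f % 3 = 2
  · exact h3 h2
  by_cases h2' : f % 3 = 1
  · exact satellite_of_classSlopes (class_one_three f h2') J hJ j
  rcases hf with hf | hf | hf | hf | hf | hf
  · exact absurd (by omega) hf
  · exact satellite_of_classSlopes (h4 f (Or.inr hf)) J hJ j
  · exact satellite_of_classSlopes (h4' f hf) J hJ j
  · exact satellite_of_classSlopes (h5 f (Or.inl hf)) J hJ j
  · exact satellite_of_classSlopes (class_four_seven f hf) J hJ j
  · exact satellite_of_classSlopes (h5 f (Or.inr hf)) J hJ j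

end Vale.Agent.Results.P258.EveryTwist
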