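import Vale.Agent.P258.R2.H863.Final
import Vale.Agent.P258.R2.H785.Cover
import Vale.Agent.P258.R2.H49.Cover5
import Vale.Agent.P258.R2.H855.Small
import Vale.Agent.P258.R2.H315.Cent5
import Vale.Agent.P258.R2.H526.ExC

/-!
A parity obstruction to cosmetic surgeries with the slopes `2` and `-2`, from the representations
of the knot group in `S₅` and `S₄`.
-/

namespace Vale.Agent.Results.P258.OddRepresentations

open Vale.Agent.P258 Vale.Agent.P258.R2.H863

/-- (1) For every knot the number of homomorphisms of its group to `S₅` that take the meridian to a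
4-cycle and the longitude to the square of the meridian is divisible by 120.  If it is not
divisible by 240 (an odd number of conjugacy classes), and if no homomorphism to `S₅` takes the
meridian to an element `x` of order six and the longitude to `x ^ 2` or `x ^ (-2)`, then the
surgeries with the slopes `2` and `-2` have non-isomorphic fundamental groups, and so have those of
all knots congruent to the given one modulo `120`, with slopes congruent to `2` and `-2`.
(2) The same for `S₄`, with `24`, `48` and congruence modulo `24`, for more pairs of slopes and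
without the second condition.
(3) (1) applies to an explicit knot with 13 crossings. -/
theorem result :
    (∀ D : Diagram, D.IsKnot → ∀ k : Fin D.n,
      120 ∣ Nat.card (Reps 5 D k) ∧
      (¬ 240 ∣ Nat.card (Reps 5 D k) → NoOrderSix D k →
        IsEmpty (SurgeryGroup D k 2 1 ≃* SurgeryGroup D k (-2) 1) ∧
        SeparatesKnotClass 120 D k 2 1 (-2) 1)) ∧
    (∀ D : Diagram, D.IsKnot → ∀ k : Fin D.n,
      24 ∣ Nat.card (Reps 4 D k) ∧
      (¬ 48 ∣ Nat.card (Reps 4 D k) → ∀ p q p' q' : ℤ, p % 4 = 2 → q % 2 = 1 →
        p' % 4 = 2 → q' % 2 = 1 → (p + 2 * q - p' - 2 * q') % 8 = 4 →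
        IsEmpty (SurgeryGroup D k p q ≃* SurgeryGroup D k p' q') ∧
        SeparatesKnotClass 24 D k p q p' q')) ∧
    (knot13.IsKnot ∧
      IsEmpty (SurgeryGroup knot13 arc0 2 1 ≃* SurgeryGroup knot13 arc0 (-2) 1) ∧
      SeparatesKnotClass 120 knot13 arc0 2 1 (-2) 1) := by
  have h := final exists_cover Vale.Agent.P258.R2.H49.S5.exists_cover5
    Vale.Agent.P258.R2.H855.free_dvd Vale.Agent.P258.R2.H855.cent
    Vale.Agent.P258.R2.H315.cent5 Vale.Agent.P258.R2.H855.count
  have e := Vale.Agent.P258.R2.H526.ex
  exact ⟨h.1, h.2, e.1, (h.1 knot13 e.1 arc0).2 e.2.1 e.2.2⟩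

end Vale.Agent.Results.P258.OddRepresentations
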